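import Vale.Agent.P072.Final

open Vale.Agent.P072

theorem Vale.Agent.Results.P072.Permanence.result :
    ∀ (d : ℕ) (C : Finset (Fin d → ℕ)) (R : Finset ((Fin d → ℕ) × (Fin d → ℕ))),
      (∀ r ∈ R, r.1 ∈ C ∧ r.2 ∈ C ∧ r.1 ≠ r.2) → WeaklyReversible R →
      ∀ k : (Fin d → ℕ) × (Fin d → ℕ) → ℝ, (∀ r ∈ R, 0 < k r) →
      ∀ c : Fin d → ℝ, (∀ i, 0 < c i) →
      ∃ K : Set (Fin d → ℝ), IsCompact K ∧ K ⊆ posClass R c ∧ ∀ x0 ∈ posClass R c,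
        ∃ x : ℝ → Fin d → ℝ, x 0 = x0 ∧
          (∀ t, 0 ≤ t → HasDerivWithinAt x (massAction R k (x t)) (Set.Ici 0) t) ∧
          (∀ t, 0 ≤ t → x t ∈ posClass R c) ∧ (∃ T, ∀ t, T ≤ t → x t ∈ K) ∧
          ∀ (T : ℝ) (y : ℝ → Fin d → ℝ), y 0 = x0 →
            (∀ t ∈ Set.Ico 0 T, HasDerivWithinAt y (massAction R k (y t)) (Set.Ico 0 T) t) →
            ∀ t ∈ Set.Ico 0 T, y t = x t :=
  fun _ _ _ _ hR _ hk _ hc => perm_const hR hk hc
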