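import Vale.Agent.P072.Final

open Vale.Agent.P072

theorem Vale.Agent.Results.P072.StrongPermanence.result :
    ∀ (d : ℕ) (C : Finset (Fin d → ℕ)) (R : Finset ((Fin d → ℕ) × (Fin d → ℕ))),
      (∀ r ∈ R, r.1 ∈ C ∧ r.2 ∈ C ∧ r.1 ≠ r.2) → WeaklyReversible R →
      ∀ c : Fin d → ℝ, (∀ i, 0 < c i) →
      (∀ k : (Fin d → ℕ) × (Fin d → ℕ) → ℝ, (∀ r ∈ R, 0 < k r) →
        ∃ K : Set (Fin d → ℝ), IsCompact K ∧ K ⊆ posClass R c ∧ ∀ x0 ∈ posClass R c,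
          ∃ x : ℝ → Fin d → ℝ, x 0 = x0 ∧
            (∀ t, 0 ≤ t → HasDerivWithinAt x (massAction R k (x t)) (Set.Ici 0) t) ∧
            (∀ t, 0 ≤ t → x t ∈ posClass R c) ∧ (∃ T, ∀ t, T ≤ t → x t ∈ K) ∧
            ∀ (T : ℝ) (y : ℝ → Fin d → ℝ), y 0 = x0 →
              (∀ t ∈ Set.Ico 0 T, HasDerivWithinAt y (massAction R k (y t)) (Set.Ico 0 T) t) →
              ∀ t ∈ Set.Ico 0 T, y t = x t) ∧
      (∀ ε : ℝ, 0 < ε →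
        ∃ K : Set (Fin d → ℝ), IsCompact K ∧ K ⊆ posClass R c ∧
          ∀ k : ℝ → (Fin d → ℕ) × (Fin d → ℕ) → ℝ, (∀ r ∈ R, Measurable fun t => k t r) →
          (∀ t, 0 ≤ t → ∀ r ∈ R, ε ≤ k t r ∧ k t r ≤ ε⁻¹) → ∀ x0 ∈ posClass R c,
          ∃ x : ℝ → Fin d → ℝ, x 0 = x0 ∧
            IsIntSol (fun t => massAction R (k t)) x (Set.Ici 0) ∧
            (∀ t, 0 ≤ t → x t ∈ posClass R c) ∧ (∃ T, ∀ t, T ≤ t → x t ∈ K) ∧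
            ∀ (T : ℝ) (y : ℝ → Fin d → ℝ), y 0 = x0 →
              IsIntSol (fun t => massAction R (k t)) y (Set.Ico 0 T) →
              ∀ t ∈ Set.Ico 0 T, y t = x t) :=
  fun _ _ _ _ hR _ hc => ⟨fun _ hk => perm_const hR hk hc, fun _ hε => perm_var hR hε hc⟩
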